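/-
helper56 -- S0355 squad (track D), package G (second / hedge): the volume of the zonotope
`Z ι = [-1,1]^ι + [-1,1]·𝟙`, `volume (Z ι) = (card ι + 1) · 2 ^ card ι`.

Proof: `Z ⊆ [0,2]^ι ∪ ⋃ k, A k` and `[0,2]^ι ∪ ⋃ k, A° k ⊆ Z` with the union on the left
disjoint, where `A k = shear k ⁻¹' box k`, `shear k z = (z k ; z j - z k)` a linear map of
determinant `± 1`, so `volume (A k) = volume (box k) = 2 ^ card ι`.
-/
import Crest.Agent.Helper28.S0355.Defs

set_option autoImplicit false
set_option linter.unusedSectionVars false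
open MeasureTheory
open scoped ENNReal

namespace Crest.Agent.Helper56.S0355

open Crest.Agent.Helper28.S0355

section Shear

variable {ι : Type} [Fintype ι] [DecidableEq ι]

/-- `shear k z = (z k ; z j - z k)`. -/
def shear (k : ι) : (ι → ℝ) →ₗ[ℝ] (ι → ℝ) :=
  LinearMap.pi fun j => if j = k then (LinearMap.proj k : (ι → ℝ) →ₗ[ℝ] ℝ)
    else (LinearMap.proj j : (ι → ℝ) →ₗ[ℝ] ℝ) - (LinearMap.proj k : (ι → ℝ) →ₗ[ℝ] ℝ)

/-- The inverse shear `z ↦ (z k ; z j + z k)`. -/
def shearInv (k : ι) : (ι → ℝ) →ₗ[ℝ] (ι → ℝ) :=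
  LinearMap.pi fun j => if j = k then (LinearMap.proj k : (ι → ℝ) →ₗ[ℝ] ℝ)
    else (LinearMap.proj j : (ι → ℝ) →ₗ[ℝ] ℝ) + (LinearMap.proj k : (ι → ℝ) →ₗ[ℝ] ℝ)

/-- The reflection `z ↦ (- z k ; z j)`. -/
def reflK (k : ι) : (ι → ℝ) →ₗ[ℝ] (ι → ℝ) :=
  LinearMap.pi fun j => if j = k then - (LinearMap.proj k : (ι → ℝ) →ₗ[ℝ] ℝ)
    else (LinearMap.proj j : (ι → ℝ) →ₗ[ℝ] ℝ)

theorem shear_apply (k : ι) (z : ι → ℝ) (j : ι) :
    shear k z j = if j = k then z k else z j - z k := by
  unfold shear
  by_cases h : j = k <;> simp [h]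

theorem shearInv_apply (k : ι) (z : ι → ℝ) (j : ι) :
    shearInv k z j = if j = k then z k else z j + z k := by
  unfold shearInv
  by_cases h : j = k <;> simp [h]

theorem reflK_apply (k : ι) (z : ι → ℝ) (j : ι) :
    reflK k z j = if j = k then - z k else z j := by
  unfold reflK
  by_cases h : j = k <;> simp [h]

theorem abs_det_shear (k : ι) : |LinearMap.det (shear k)| = 1 := by
  have h1 : shear k ∘ₗ shearInv k = LinearMap.id := by
    ext z j
    by_cases h : j = k <;> simp [shear_apply, shearInv_apply, h]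
  have h2 : shearInv k = reflK k ∘ₗ shear k ∘ₗ reflK k := by
    ext z j
    by_cases h : j = k <;> simp [shear_apply, shearInv_apply, reflK_apply, h]
  have h3 : reflK k ∘ₗ reflK k = LinearMap.id := by
    ext z j
    by_cases h : j = k <;> simp [reflK_apply, h]
  have d1 : LinearMap.det (shear k) * LinearMap.det (shearInv k) = 1 := by
    rw [← LinearMap.det_comp, h1, LinearMap.det_id]
  have d3 : LinearMap.det (reflK k) * LinearMap.det (reflK k) = 1 := by
    rw [← LinearMap.det_comp, h3, LinearMap.det_id]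
  have d2 : LinearMap.det (shearInv k) =
      LinearMap.det (reflK k) * (LinearMap.det (shear k) * LinearMap.det (reflK k)) := by
    rw [h2, LinearMap.det_comp, LinearMap.det_comp]
  have d4 : LinearMap.det (shear k) * LinearMap.det (shear k) = 1 := by
    calc LinearMap.det (shear k) * LinearMap.det (shear k)
        = LinearMap.det (shear k) * (LinearMap.det (reflK k) *
            (LinearMap.det (shear k) * LinearMap.det (reflK k))) := by
          have : LinearMap.det (reflK k) * (LinearMap.det (shear k) * LinearMap.det (reflK k))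
              = LinearMap.det (shear k) * (LinearMap.det (reflK k) * LinearMap.det (reflK k)) := by
            ring
          rw [this, d3, mul_one]
      _ = 1 := by rw [← d2, d1]
  rcases mul_self_eq_one_iff.mp d4 with h | h <;> simp [h]

theorem volume_preimage_shear (k : ι) (s : Set (ι → ℝ)) :
    volume (shear k ⁻¹' s) = volume s := by
  have hd : LinearMap.det (shear k) ≠ 0 := by
    intro h
    have := abs_det_shear k
    rw [h] at this
    simp at this
  rw [Measure.addHaar_preimage_linearMap volume hd, abs_inv, abs_det_shear]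
  simp

/-- Lower corner of the `k`-th box. -/
def lo (k : ι) : ι → ℝ := fun j => if j = k then -2 else 0

/-- Upper corner of the `k`-th box. -/
def hi (k : ι) : ι → ℝ := fun j => if j = k then 0 else 2

theorem hi_sub_lo (k j : ι) : hi k j - lo k j = 2 := by
  unfold hi lo
  by_cases h : j = k <;> simp [h]

theorem volume_closedPiece (k : ι) :
    volume (shear k ⁻¹' Set.Icc (lo k) (hi k)) = ENNReal.ofReal 2 ^ Fintype.card ι := by
  rw [volume_preimage_shear, Real.volume_Icc_pi]
  simp [hi_sub_lo]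

theorem volume_openPiece (k : ι) :
    volume (shear k ⁻¹' Set.pi Set.univ fun j => Set.Ioo (lo k j) (hi k j)) =
      ENNReal.ofReal 2 ^ Fintype.card ι := by
  rw [volume_preimage_shear, Real.volume_pi_Ioo]
  simp [hi_sub_lo]

theorem volume_cube :
    volume (Set.Icc (0 : ι → ℝ) (fun _ => 2)) = ENNReal.ofReal 2 ^ Fintype.card ι := by
  rw [Real.volume_Icc_pi]
  simp

theorem mem_closedPiece (k : ι) (z : ι → ℝ) :
    z ∈ shear k ⁻¹' Set.Icc (lo k) (hi k) ↔
      (-2 ≤ z k ∧ z k ≤ 0) ∧ ∀ j, j ≠ k → 0 ≤ z j - z k ∧ z j - z k ≤ 2 := by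
  simp only [Set.mem_preimage, Set.mem_Icc, Pi.le_def]
  constructor
  · rintro ⟨h1, h2⟩
    refine ⟨⟨?_, ?_⟩, fun j hj => ⟨?_, ?_⟩⟩
    · have := h1 k; simpa [shear_apply, lo] using this
    · have := h2 k; simpa [shear_apply, hi] using this
    · have := h1 j; simpa [shear_apply, lo, hj] using this
    · have := h2 j; simpa [shear_apply, hi, hj] using this
  · rintro ⟨⟨h1, h2⟩, h3⟩
    refine ⟨fun j => ?_, fun j => ?_⟩
    · by_cases hj : j = k
      · subst hj; simpa [shear_apply, lo] using h1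
      · simpa [shear_apply, lo, hj] using (h3 j hj).1
    · by_cases hj : j = k
      · subst hj; simpa [shear_apply, hi] using h2
      · simpa [shear_apply, hi, hj] using (h3 j hj).2

theorem mem_openPiece (k : ι) (z : ι → ℝ) :
    z ∈ (shear k ⁻¹' Set.pi Set.univ fun j => Set.Ioo (lo k j) (hi k j)) ↔
      (-2 < z k ∧ z k < 0) ∧ ∀ j, j ≠ k → 0 < z j - z k ∧ z j - z k < 2 := by
  simp only [Set.mem_preimage, Set.mem_pi, Set.mem_univ, forall_true_left, Set.mem_Ioo]
  constructor
  · intro h
    refine ⟨?_, fun j hj => ?_⟩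
    · have := h k; simpa [shear_apply, lo, hi] using this
    · have := h j; simpa [shear_apply, lo, hi, hj] using this
  · rintro ⟨h1, h3⟩ j
    by_cases hj : j = k
    · subst hj; simpa [shear_apply, lo, hi] using h1
    · simpa [shear_apply, lo, hi, hj] using h3 j hj

theorem Z_subset :
    Z ι ⊆ Set.Icc (0 : ι → ℝ) (fun _ => 2) ∪ ⋃ k, shear k ⁻¹' Set.Icc (lo k) (hi k) := by
  intro z hz
  obtain ⟨hz1, hz2⟩ := hz
  by_cases h : ∀ i, 0 ≤ z i
  · left
    refine ⟨fun i => h i, fun i => (abs_le.mp (hz1 i)).2⟩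
  · right
    obtain ⟨i, hi⟩ := not_forall.mp h
    have hi := not_le.mp hi
    have : Nonempty ι := ⟨i⟩
    obtain ⟨k, hk⟩ := Finite.exists_min z
    refine Set.mem_iUnion.mpr ⟨k, (mem_closedPiece k z).mpr ⟨⟨(abs_le.mp (hz1 k)).1, ?_⟩, ?_⟩⟩
    · exact le_trans (hk i) hi.le
    · intro j _
      exact ⟨sub_nonneg.mpr (hk j), hz2 j k⟩

theorem cube_subset_Z : Set.Icc (0 : ι → ℝ) (fun _ => 2) ⊆ Z ι := by
  intro z hz
  obtain ⟨h0, h2⟩ := hz
  refine ⟨fun i => abs_le.mpr ⟨?_, h2 i⟩, fun i j => ?_⟩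
  · have := h0 i; simp only [Pi.zero_apply] at this; linarith
  · have := h0 j; simp only [Pi.zero_apply] at this
    have := h2 i; linarith

theorem openPiece_subset_Z (k : ι) :
    (shear k ⁻¹' Set.pi Set.univ fun j => Set.Ioo (lo k j) (hi k j)) ⊆ Z ι := by
  intro z hz
  obtain ⟨⟨h1, h2⟩, h3⟩ := (mem_openPiece k z).mp hz
  refine ⟨fun i => ?_, fun i j => ?_⟩
  · by_cases hi : i = k
    · subst hi; exact abs_le.mpr ⟨h1.le, by linarith⟩
    · have := h3 i hi
      exact abs_le.mpr ⟨by linarith, by linarith⟩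
  · by_cases hi : i = k
    · by_cases hj : j = k
      · subst hi; subst hj; simp
      · have := h3 j hj; subst hi; linarith
    · by_cases hj : j = k
      · have := h3 i hi; subst hj; linarith
      · have := h3 i hi; have := h3 j hj; linarith

theorem measurable_shear (k : ι) : Measurable (shear k) :=
  (LinearMap.continuous_of_finiteDimensional (shear k)).measurable

theorem measurableSet_openPiece (k : ι) :
    MeasurableSet (shear k ⁻¹' Set.pi Set.univ fun j => Set.Ioo (lo k j) (hi k j)) :=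
  (measurable_shear k) (MeasurableSet.univ_pi fun _ => measurableSet_Ioo)

theorem disjoint_openPiece {k l : ι} (hkl : k ≠ l) :
    Disjoint (shear k ⁻¹' Set.pi Set.univ fun j => Set.Ioo (lo k j) (hi k j))
      (shear l ⁻¹' Set.pi Set.univ fun j => Set.Ioo (lo l j) (hi l j)) := by
  rw [Set.disjoint_left]
  intro z hz hz'
  have h1 := ((mem_openPiece k z).mp hz).2 l (Ne.symm hkl)
  have h2 := ((mem_openPiece l z).mp hz').2 k hkl
  linarith [h1.1, h2.1]

theorem disjoint_cube_openPieces :
    Disjoint (Set.Icc (0 : ι → ℝ) (fun _ => 2))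
      (⋃ k, shear k ⁻¹' Set.pi Set.univ fun j => Set.Ioo (lo k j) (hi k j)) := by
  rw [Set.disjoint_left]
  intro z hz hz'
  obtain ⟨k, hk⟩ := Set.mem_iUnion.mp hz'
  have h1 := ((mem_openPiece k z).mp hk).1.2
  have h2 := hz.1 k
  simp only [Pi.zero_apply] at h2
  linarith

theorem volume_Z_aux :
    volume (Z ι) = ENNReal.ofReal 2 ^ Fintype.card ι +
      (Fintype.card ι : ℝ≥0∞) * ENNReal.ofReal 2 ^ Fintype.card ι := by
  apply le_antisymm
  · calc volume (Z ι)
        ≤ volume (Set.Icc (0 : ι → ℝ) (fun _ => 2) ∪ ⋃ k, shear k ⁻¹' Set.Icc (lo k) (hi k)) :=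
          measure_mono Z_subset
      _ ≤ volume (Set.Icc (0 : ι → ℝ) (fun _ => 2)) +
            volume (⋃ k, shear k ⁻¹' Set.Icc (lo k) (hi k)) := measure_union_le _ _
      _ ≤ volume (Set.Icc (0 : ι → ℝ) (fun _ => 2)) +
            ∑ k, volume (shear k ⁻¹' Set.Icc (lo k) (hi k)) := by
          gcongr
          exact measure_iUnion_fintype_le _ _
      _ = _ := by
          rw [volume_cube]
          simp [volume_closedPiece]
  · calc ENNReal.ofReal 2 ^ Fintype.card ι +
          (Fintype.card ι : ℝ≥0∞) * ENNReal.ofReal 2 ^ Fintype.card ι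
        = volume (Set.Icc (0 : ι → ℝ) (fun _ => 2)) +
            ∑ k : ι, volume (shear k ⁻¹' Set.pi Set.univ fun j => Set.Ioo (lo k j) (hi k j)) := by
          rw [volume_cube]
          simp [volume_openPiece]
      _ = volume (Set.Icc (0 : ι → ℝ) (fun _ => 2)) +
            volume (⋃ k, shear k ⁻¹' Set.pi Set.univ fun j => Set.Ioo (lo k j) (hi k j)) := by
          have hU := measure_iUnion (μ := (volume : Measure (ι → ℝ)))
            (f := fun k : ι => shear k ⁻¹' Set.pi Set.univ fun j => Set.Ioo (lo k j) (hi k j))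
            (fun k l hkl => disjoint_openPiece hkl) measurableSet_openPiece
          rw [hU, tsum_fintype]
      _ = volume (Set.Icc (0 : ι → ℝ) (fun _ => 2) ∪
            ⋃ k, shear k ⁻¹' Set.pi Set.univ fun j => Set.Ioo (lo k j) (hi k j)) := by
          rw [measure_union disjoint_cube_openPieces
            (MeasurableSet.iUnion measurableSet_openPiece)]
      _ ≤ volume (Z ι) := by
          apply measure_mono
          apply Set.union_subset cube_subset_Z
          exact Set.iUnion_subset openPiece_subset_Z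

end Shear

/-- Package G: the volume of the zonotope `Z ι = [-1,1]^ι + [-1,1]·𝟙`. -/
theorem volume_Z (ι : Type) [Fintype ι] :
    volume (Z ι) = ENNReal.ofReal (((Fintype.card ι : ℝ) + 1) * 2 ^ Fintype.card ι) := by
  classical
  rw [volume_Z_aux]
  have h2 : (0 : ℝ) ≤ 2 := by norm_num
  rw [ENNReal.ofReal_mul (by positivity), ENNReal.ofReal_pow h2,
    ENNReal.ofReal_add (by positivity) (by norm_num), ENNReal.ofReal_natCast, ENNReal.ofReal_one]
  ring

end Crest.Agent.Helper56.S0355
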